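import Vale.Agent.P034F.Assemble

/-! Talagrand's conjecture: fractional and integral expectation thresholds agree up to a
universal constant factor. -/

namespace Vale.Agent.Results.P034.Full

open P034F

/-- `q_f(F) ≤ K q(F)` with the universal constant `K = 2 ^ 65`, for every finite nonempty ground
set and every nonempty proper increasing family `F`; moreover a fractional cover of cost at most
`1/2` at `p` always yields an integral cover of cost at most `1/2` at `p / K`. -/
theorem result {α : Type*} [Fintype α] [Nonempty α] (F : Set (Finset α))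
    (_hne : F.Nonempty) (hproper : ∅ ∉ F) (_hup : IsUpperSet F) :
    qFrac F ≤ 2 ^ 65 * qInt F ∧
      ∀ p : ℝ, 0 ≤ p → p ≤ 1 → IsFracSmall F p → IsSmall F (p / 2 ^ 65) := by
  classical
  have hmain : ∀ p : ℝ, 0 ≤ p → p ≤ 1 → IsFracSmall F p → IsSmall F (p / 2 ^ 65) := by
    intro p hp0 hp1 h
    rcases hp0.eq_or_lt with h0 | hp
    · refine ⟨Finset.univ.filter (fun S => S.Nonempty), ?_, ?_⟩
      · intro H hH
        refine ⟨H, Finset.mem_filter.2 ⟨Finset.mem_univ _, ?_⟩, subset_rfl⟩
        rw [Finset.nonempty_iff_ne_empty]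
        rintro rfl
        exact hproper hH
      · have h1 : cost (p / 2 ^ 65) (Finset.univ.filter (fun S : Finset α => S.Nonempty)) = 0 := by
          unfold cost
          apply Finset.sum_eq_zero
          intro S hS
          rw [← h0, zero_div]
          exact zero_pow ((Finset.mem_filter.1 hS).2.card_pos.ne')
        rw [h1]
        norm_num
    · exact small_of_fracSmall hp hp1 h
  refine ⟨?_, hmain⟩
  have hbdd : BddAbove {p : ℝ | 0 ≤ p ∧ p ≤ 1 ∧ IsSmall F p} := ⟨1, fun p hp => hp.2.1⟩
  have hq0 : 0 ≤ qInt F := Real.sSup_nonneg fun p hp => hp.1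
  unfold qFrac
  apply Real.sSup_le
  · rintro p ⟨hp0, hp1, h⟩
    have h1 := hmain p hp0 hp1 h
    have h2 : (0 : ℝ) ≤ p / 2 ^ 65 := by positivity
    have h3 : p / 2 ^ 65 ≤ 1 := by
      rw [div_le_one (by positivity)]
      exact hp1.trans (by norm_num)
    have h4 : p / 2 ^ 65 ≤ qInt F := le_csSup hbdd ⟨h2, h3, h1⟩
    rw [div_le_iff₀ (by positivity)] at h4
    linarith
  · positivity

end Vale.Agent.Results.P034.Full
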