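import Mathlib

/-! Integral versus fractional expectation thresholds: `q_f ≤ 8 (log* |X| + 3) q`. -/

namespace Vale.Agent.P034

open Finset

/-- `G` covers `F`: every member of `F` contains some member of `G`. -/
def Covers {α : Type*} (G : Finset (Finset α)) (F : Set (Finset α)) : Prop :=
  ∀ H ∈ F, ∃ S ∈ G, S ⊆ H

/-- The cost of `G` at `p`. -/
noncomputable def cost {α : Type*} (p : ℝ) (G : Finset (Finset α)) : ℝ :=
  ∑ S ∈ G, p ^ S.card

/-- `F` is `p`-small: some cover of `F` costs at most `1/2` at `p`. -/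
def IsSmall {α : Type*} (F : Set (Finset α)) (p : ℝ) : Prop :=
  ∃ G : Finset (Finset α), Covers G F ∧ cost p G ≤ 1 / 2

/-- `F` has a fractional cover of cost at most `1/2` at `p`. -/
def IsFracSmall {α : Type*} [Fintype α] (F : Set (Finset α)) (p : ℝ) : Prop :=
  ∃ g : Finset α → ℝ, (∀ S, 0 ≤ g S ∧ g S ≤ 1) ∧
    (∀ H ∈ F, 1 ≤ ∑ S ∈ H.powerset, g S) ∧ ∑ S : Finset α, g S * p ^ S.card ≤ 1 / 2

/-- The expectation threshold. -/
noncomputable def qInt {α : Type*} (F : Set (Finset α)) : ℝ :=
  sSup {p : ℝ | 0 ≤ p ∧ p ≤ 1 ∧ IsSmall F p}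

/-- The fractional expectation threshold. -/
noncomputable def qFrac {α : Type*} [Fintype α] (F : Set (Finset α)) : ℝ :=
  sSup {p : ℝ | 0 ≤ p ∧ p ≤ 1 ∧ IsFracSmall F p}

/-- The tower function: `1, 2, 4, 16, 65536, …`. -/
def tower : ℕ → ℕ
  | 0 => 1
  | k + 1 => 2 ^ tower k

/-- The iterated logarithm in base two: the least `k` with `n ≤ tower k`. -/
noncomputable def logStar (n : ℕ) : ℕ := sInf {k : ℕ | n ≤ tower k}

section Proof

variable {α : Type*} [Fintype α] [DecidableEq α]

/-- The potential of a set. -/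
noncomputable def pot (g : Finset α → ℝ) (s : ℝ) (T : Finset α) : ℝ :=
  ∑ S : Finset α, g S * s ^ (S \ T).card

lemma cost_nonneg {q : ℝ} (hq : 0 ≤ q) (G : Finset (Finset α)) : 0 ≤ cost q G :=
  Finset.sum_nonneg fun _ _ => pow_nonneg hq _

lemma pot_mono (g : Finset α → ℝ) (hg : ∀ S, 0 ≤ g S) {s s' : ℝ} (hs : 0 ≤ s) (h : s ≤ s')
    (T : Finset α) : pot g s T ≤ pot g s' T := by
  unfold pot
  apply Finset.sum_le_sum
  intro S _
  exact mul_le_mul_of_nonneg_left (pow_le_pow_left₀ hs h _) (hg S)

lemma expand (s : ℝ) (A R : Finset α) :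
    s ^ (A \ R).card = ∑ U ∈ A.powerset,
      (if U ⊆ R then (1 : ℝ) else 0) * ((1 - s) ^ U.card * s ^ (A.card - U.card)) := by
  have h1 : s ^ (A \ R).card = ∏ x ∈ A, ((if x ∈ R then (1 - s) else 0) + s) := by
    have h2 : ∀ x ∈ A, ((if x ∈ R then (1 - s) else 0) + s) = if x ∈ R then (1 : ℝ) else s := by
      intro x _
      split_ifs <;> ring
    rw [Finset.prod_congr rfl h2, Finset.prod_ite, Finset.prod_const_one, one_mul,
      Finset.prod_const]
    congr 2
    ext x
    simp [Finset.mem_sdiff]
  rw [h1, Finset.prod_add]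
  apply Finset.sum_congr rfl
  intro U hU
  have hUA : U ⊆ A := Finset.mem_powerset.1 hU
  rw [Finset.prod_const, Finset.card_sdiff_of_subset hUA]
  by_cases hUR : U ⊆ R
  · rw [if_pos hUR, one_mul]
    congr 1
    rw [← Finset.prod_const]
    apply Finset.prod_congr rfl
    intro x hx
    rw [if_pos (hUR hx)]
  · rw [if_neg hUR, zero_mul]
    obtain ⟨x, hxU, hxR⟩ := Finset.not_subset.1 hUR
    rw [Finset.prod_eq_zero hxU (by rw [if_neg hxR]), zero_mul]

/-- The key selection step. -/
lemma select (g : Finset α → ℝ) (hg : ∀ S, 0 ≤ g S) {s s' q lam : ℝ} (hs : 0 ≤ s) (hs1 : s ≤ 1)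
    (hq : 0 < q) (hlam : 0 < lam) (hs' : s + lam * q ≤ s') (G : Finset (Finset α))
    (hG : ∀ R ∈ G, 1 ≤ pot g s R) (hM : 0 < cost q G) :
    ∃ T : Finset α, 1 ≤ pot g s' T ∧
      cost q G * (lam * q) ^ T.card ≤ cost q (G.filter (fun R => T ⊆ R)) := by
  have hlq : 0 < lam * q := mul_pos hlam hq
  obtain ⟨T, -, hT⟩ := Finset.exists_max_image (Finset.univ : Finset (Finset α))
    (fun T => cost q (G.filter (fun R => T ⊆ R)) / (lam * q) ^ T.card) ⟨∅, Finset.mem_univ _⟩
  set D : Finset α → ℝ := fun T => cost q (G.filter (fun R => T ⊆ R)) with hD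
  have hDempty : D ∅ = cost q G := by
    simp [hD]
  have hTbase : cost q G * (lam * q) ^ T.card ≤ D T := by
    have h := hT ∅ (Finset.mem_univ _)
    have h2 : D ∅ / (lam * q) ^ (∅ : Finset α).card ≤ D T / (lam * q) ^ T.card := h
    rw [hDempty, Finset.card_empty, pow_zero, div_one, le_div_iff₀ (pow_pos hlq _)] at h2
    exact h2
  have hDT : 0 < D T := lt_of_lt_of_le (mul_pos hM (pow_pos hlq _)) hTbase
  refine ⟨T, ?_, hTbase⟩
  have hmax : ∀ U : Finset α, Disjoint T U → D (T ∪ U) ≤ D T * (lam * q) ^ U.card := by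
    intro U hU
    have h := hT (T ∪ U) (Finset.mem_univ _)
    have h2 : D (T ∪ U) / (lam * q) ^ (T ∪ U).card ≤ D T / (lam * q) ^ T.card := h
    rw [Finset.card_union_of_disjoint hU, pow_add, div_le_div_iff₀
      (mul_pos (pow_pos hlq _) (pow_pos hlq _)) (pow_pos hlq _)] at h2
    have h3 : 0 < (lam * q) ^ T.card := pow_pos hlq _
    have h4 : D (T ∪ U) * (lam * q) ^ T.card ≤ (D T * (lam * q) ^ U.card) * (lam * q) ^ T.card := by
      calc D (T ∪ U) * (lam * q) ^ T.card ≤ D T * ((lam * q) ^ T.card * (lam * q) ^ U.card) := h2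
        _ = (D T * (lam * q) ^ U.card) * (lam * q) ^ T.card := by ring
    exact le_of_mul_le_mul_right h4 h3
  -- the main estimate for one `S`
  have hone : ∀ S : Finset α, ∑ R ∈ G.filter (fun R => T ⊆ R), q ^ R.card * s ^ (S \ R).card
      ≤ D T * s' ^ (S \ T).card := by
    intro S
    have hrew : ∀ R ∈ G.filter (fun R => T ⊆ R), q ^ R.card * s ^ (S \ R).card
        = ∑ U ∈ (S \ T).powerset, ((1 - s) ^ U.card * s ^ ((S \ T).card - U.card)) *
          ((if U ⊆ R then (1 : ℝ) else 0) * q ^ R.card) := by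
      intro R hR
      have hTR : T ⊆ R := (Finset.mem_filter.1 hR).2
      have h1 : S \ R = (S \ T) \ R := by
        ext x
        simp only [Finset.mem_sdiff]
        constructor
        · rintro ⟨h1, h2⟩
          exact ⟨⟨h1, fun h => h2 (hTR h)⟩, h2⟩
        · rintro ⟨⟨h1, -⟩, h2⟩
          exact ⟨h1, h2⟩
      rw [h1, expand s (S \ T) R, Finset.mul_sum]
      apply Finset.sum_congr rfl
      intro U _
      ring
    rw [Finset.sum_congr rfl hrew, Finset.sum_comm]
    have hU : ∀ U ∈ (S \ T).powerset,
        ∑ R ∈ G.filter (fun R => T ⊆ R), ((1 - s) ^ U.card * s ^ ((S \ T).card - U.card)) *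
          ((if U ⊆ R then (1 : ℝ) else 0) * q ^ R.card)
        ≤ D T * (((1 - s) * (lam * q)) ^ U.card * s ^ ((S \ T).card - U.card)) := by
      intro U hU
      have hUS : U ⊆ S \ T := Finset.mem_powerset.1 hU
      have hdis : Disjoint T U := by
        rw [Finset.disjoint_left]
        intro x hxT hxU
        exact (Finset.mem_sdiff.1 (hUS hxU)).2 hxT
      rw [← Finset.mul_sum]
      have h1 : ∑ R ∈ G.filter (fun R => T ⊆ R), ((if U ⊆ R then (1 : ℝ) else 0) * q ^ R.card)
          = D (T ∪ U) := by
        simp only [hD, cost, ite_mul, one_mul, zero_mul]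
        rw [← Finset.sum_filter, Finset.filter_filter]
        apply Finset.sum_congr _ (fun _ _ => rfl)
        ext R
        simp only [Finset.mem_filter, Finset.union_subset_iff]
      rw [h1]
      have h2 : 0 ≤ (1 - s) ^ U.card * s ^ ((S \ T).card - U.card) :=
        mul_nonneg (pow_nonneg (by linarith) _) (pow_nonneg hs _)
      calc (1 - s) ^ U.card * s ^ ((S \ T).card - U.card) * D (T ∪ U)
          ≤ (1 - s) ^ U.card * s ^ ((S \ T).card - U.card) * (D T * (lam * q) ^ U.card) :=
            mul_le_mul_of_nonneg_left (hmax U hdis) h2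
        _ = D T * (((1 - s) * (lam * q)) ^ U.card * s ^ ((S \ T).card - U.card)) := by
            rw [mul_pow (1 - s) (lam * q)]; ring
    refine (Finset.sum_le_sum hU).trans ?_
    rw [← Finset.mul_sum, Finset.sum_pow_mul_eq_add_pow]
    apply mul_le_mul_of_nonneg_left _ hDT.le
    apply pow_le_pow_left₀
    · have := mul_nonneg (sub_nonneg.2 hs1) hlq.le
      linarith
    · nlinarith [mul_nonneg hs hlq.le]
  -- sum over `S`
  have hsum : D T ≤ D T * pot g s' T := by
    calc D T = ∑ R ∈ G.filter (fun R => T ⊆ R), q ^ R.card * 1 := by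
          simp only [hD, cost, mul_one]
      _ ≤ ∑ R ∈ G.filter (fun R => T ⊆ R), q ^ R.card * pot g s R := by
          apply Finset.sum_le_sum
          intro R hR
          exact mul_le_mul_of_nonneg_left (hG R (Finset.mem_filter.1 hR).1) (pow_nonneg hq.le _)
      _ = ∑ S : Finset α, g S *
            ∑ R ∈ G.filter (fun R => T ⊆ R), q ^ R.card * s ^ (S \ R).card := by
          simp only [pot, Finset.mul_sum]
          rw [Finset.sum_comm]
          apply Finset.sum_congr rfl
          intro S _
          apply Finset.sum_congr rfl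
          intro R _
          ring
      _ ≤ ∑ S : Finset α, g S * (D T * s' ^ (S \ T).card) := by
          apply Finset.sum_le_sum
          intro S _
          exact mul_le_mul_of_nonneg_left (hone S) (hg S)
      _ = D T * pot g s' T := by
          simp only [pot, Finset.mul_sum]
          apply Finset.sum_congr rfl
          intro S _
          ring
  have h5 : D T * 1 ≤ D T * pot g s' T := by linarith
  exact le_of_mul_le_mul_left h5 hDT

/-- The cost function after one round. -/
noncomputable def phi (y : ℝ) : ℝ := if y ≤ 1 then 1 else 2 + Real.log y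

lemma phi_le {y B : ℝ} (hB : 1 ≤ B) (h : y ≤ B) : phi y ≤ 2 + Real.log B := by
  unfold phi
  have hlog : 0 ≤ Real.log B := Real.log_nonneg hB
  split_ifs with h1
  · linarith
  · have : Real.log y ≤ Real.log B := Real.log_le_log (by linarith) h
    linarith

/-- One round of the greedy cover. -/
lemma step (g : Finset α → ℝ) (hg : ∀ S, 0 ≤ g S) {s s' q lam : ℝ} (hs : 0 ≤ s) (hs1 : s ≤ 1)
    (hq : 0 < q) (hlam : 1 ≤ lam) (hs' : s + lam * q ≤ s') (hbase : pot g s' ∅ < 1) :
    ∀ (n : ℕ) (G : Finset (Finset α)), G.card ≤ n → (∀ R ∈ G, 1 ≤ pot g s R) →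
      ∃ G' : Finset (Finset α), (∀ T ∈ G', 1 ≤ pot g s' T) ∧ (∀ R ∈ G, ∃ T ∈ G', T ⊆ R) ∧
        lam * cost q G' ≤ phi (lam * cost q G) := by
  have hlam0 : 0 < lam := by linarith
  have hss : s ≤ s' := by nlinarith [mul_pos hlam0 hq]
  intro n
  induction n with
  | zero =>
    intro G hGn hG
    have hGe : G = ∅ := Finset.card_eq_zero.1 (Nat.le_zero.1 hGn)
    subst hGe
    refine ⟨∅, by simp, by simp, ?_⟩
    simp [cost, phi]
  | succ n ih =>
    intro G hGn hG
    by_cases hsmall : lam * cost q G ≤ 1
    · refine ⟨G, fun T hT => (hG T hT).trans (pot_mono g hg hs hss T), fun R hR => ⟨R, hR, subset_rfl⟩, ?_⟩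
      unfold phi
      rw [if_pos hsmall]
      exact hsmall
    · push Not at hsmall
      have hM : 0 < cost q G := by
        by_contra hcon
        push Not at hcon
        nlinarith
      obtain ⟨T, hTpot, hTcost⟩ := select g hg hs hs1 hq hlam0 hs' G hG hM
      have hTne : T.card ≠ 0 := by
        intro h0
        rw [Finset.card_eq_zero] at h0
        subst h0
        linarith
      set G1 := G.filter (fun R => ¬ T ⊆ R) with hG1
      have hsplit : cost q (G.filter (fun R => T ⊆ R)) + cost q G1 = cost q G := by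
        unfold cost
        exact Finset.sum_filter_add_sum_filter_not G (fun R => T ⊆ R) _
      have hrem : 0 < cost q (G.filter (fun R => T ⊆ R)) :=
        lt_of_lt_of_le (mul_pos hM (pow_pos (mul_pos hlam0 hq) _)) hTcost
      have hcard : G1.card ≤ n := by
        have hlt : G1.card < G.card := by
          apply Finset.card_lt_card
          rw [Finset.ssubset_iff_subset_ne]
          refine ⟨Finset.filter_subset _ _, ?_⟩
          intro heq
          rw [heq] at hsplit
          linarith
        omega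
      obtain ⟨G', hG'pot, hG'cov, hG'cost⟩ := ih G1 hcard
        (fun R hR => hG R (Finset.mem_filter.1 hR).1)
      refine ⟨insert T G', ?_, ?_, ?_⟩
      · intro U hU
        rcases Finset.mem_insert.1 hU with rfl | hU
        · exact hTpot
        · exact hG'pot U hU
      · intro R hR
        by_cases hTR : T ⊆ R
        · exact ⟨T, Finset.mem_insert_self _ _, hTR⟩
        · obtain ⟨U, hU, hUR⟩ := hG'cov R (Finset.mem_filter.2 ⟨hR, hTR⟩)
          exact ⟨U, Finset.mem_insert_of_mem hU, hUR⟩
      · have h1 : cost q (insert T G') ≤ q ^ T.card + cost q G' := by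
          unfold cost
          by_cases hmem : T ∈ G'
          · rw [Finset.insert_eq_of_mem hmem]
            have := pow_nonneg hq.le T.card
            linarith
          · rw [Finset.sum_insert hmem]
        -- cost of `T`
        have h2 : lam * q ^ T.card * cost q G ≤ cost q G - cost q G1 := by
          have h3 : lam * q ^ T.card ≤ (lam * q) ^ T.card := by
            rw [mul_pow]
            apply mul_le_mul_of_nonneg_right _ (pow_nonneg hq.le _)
            calc lam = lam ^ 1 := (pow_one lam).symm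
              _ ≤ lam ^ T.card := pow_le_pow_right₀ hlam (Nat.one_le_iff_ne_zero.2 hTne)
          have h4 : lam * q ^ T.card * cost q G ≤ (lam * q) ^ T.card * cost q G :=
            mul_le_mul_of_nonneg_right h3 hM.le
          have h5 : (lam * q) ^ T.card * cost q G = cost q G * (lam * q) ^ T.card := by ring
          linarith
        have h6 : lam * q ^ T.card ≤ 1 - cost q G1 / cost q G := by
          have h7 : lam * q ^ T.card ≤ (cost q G - cost q G1) / cost q G := by
            rw [le_div_iff₀ hM]
            exact h2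
          have h8 : (cost q G - cost q G1) / cost q G = 1 - cost q G1 / cost q G := by
            field_simp
          linarith
        have h9 : lam * cost q (insert T G') ≤ lam * q ^ T.card + phi (lam * cost q G1) := by
          have := mul_le_mul_of_nonneg_left h1 hlam0.le
          linarith
        have hG1nn : 0 ≤ cost q G1 := cost_nonneg hq.le G1
        have hphiG : phi (lam * cost q G) = 2 + Real.log (lam * cost q G) := by
          unfold phi
          rw [if_neg (not_le.2 hsmall)]
        rw [hphiG]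
        by_cases hsm1 : lam * cost q G1 ≤ 1
        · have h10 : phi (lam * cost q G1) = 1 := by
            unfold phi
            rw [if_pos hsm1]
          have h11 : 0 ≤ cost q G1 / cost q G := div_nonneg hG1nn hM.le
          have h12 : 0 ≤ Real.log (lam * cost q G) := Real.log_nonneg hsmall.le
          linarith
        · push Not at hsm1
          have h10 : phi (lam * cost q G1) = 2 + Real.log (lam * cost q G1) := by
            unfold phi
            rw [if_neg (not_le.2 hsm1)]
          have hG1pos : 0 < cost q G1 := by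
            by_contra hcon
            push Not at hcon
            nlinarith
          have h13 : 1 - cost q G1 / cost q G ≤ Real.log (cost q G / cost q G1) := by
            have := Real.one_sub_inv_le_log_of_pos (div_pos hM hG1pos)
            rwa [inv_div] at this
          have h14 : Real.log (lam * cost q G) =
              Real.log (lam * cost q G1) + Real.log (cost q G / cost q G1) := by
            rw [← Real.log_mul (by positivity) (by positivity)]
            congr 1
            field_simp
          linarith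

lemma one_le_tower (k : ℕ) : 1 ≤ tower k := by
  induction k with
  | zero => simp [tower]
  | succ k _ => simp only [tower]; exact Nat.one_le_two_pow

lemma le_tower (k : ℕ) : k ≤ tower k := by
  induction k with
  | zero => simp
  | succ k ih =>
    simp only [tower]
    exact lt_of_le_of_lt ih Nat.lt_two_pow_self

lemma le_tower_logStar (n : ℕ) : n ≤ tower (logStar n) := by
  have h : (sInf {k : ℕ | n ≤ tower k}) ∈ {k : ℕ | n ≤ tower k} := Nat.sInf_mem ⟨n, le_tower n⟩
  exact h

/-- Iterating the rounds. -/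
lemma iterate (g : Finset α → ℝ) (hg : ∀ S, 0 ≤ g S) {p q : ℝ} (hp1 : p ≤ 1)
    (hq : 0 < q) (hcost : ∑ S : Finset α, g S * p ^ S.card ≤ 1 / 2) :
    ∀ (j : ℕ) (s : ℝ) (G : Finset (Finset α)), 0 ≤ s → s + 8 * q * (j + 2) ≤ p →
      (∀ R ∈ G, 1 ≤ pot g s R) → 8 * cost q G ≤ 8 * tower j →
      ∃ G' : Finset (Finset α), (∀ R ∈ G, ∃ T ∈ G', T ⊆ R) ∧ cost q G' ≤ 1 / 2 := by
  have hbase : ∀ s' : ℝ, 0 ≤ s' → s' ≤ p → pot g s' ∅ < 1 := by
    intro s' h0 h1
    have h2 : pot g s' ∅ ≤ ∑ S : Finset α, g S * p ^ S.card := by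
      unfold pot
      apply Finset.sum_le_sum
      intro S _
      rw [Finset.sdiff_empty]
      exact mul_le_mul_of_nonneg_left (pow_le_pow_left₀ h0 h1 _) (hg S)
    linarith
  have hlog2 : Real.log 2 < 0.6931471808 := Real.log_two_lt_d9
  have hlog8 : Real.log 8 = 3 * Real.log 2 := by
    rw [show (8 : ℝ) = 2 ^ 3 by norm_num, Real.log_pow]
    norm_num
  intro j
  induction j with
  | zero =>
    intro s G hs hsp hG hGc
    have h1 : s + 8 * q ≤ p := by
      push_cast at hsp
      nlinarith
    obtain ⟨G1, hG1, hcov1, hc1⟩ := step g hg hs (by nlinarith) hq (by norm_num : (1 : ℝ) ≤ 8)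
      (le_refl (s + 8 * q)) (hbase _ (by positivity) h1) _ G le_rfl hG
    have h2 : s + 8 * q + 8 * q ≤ p := by
      push_cast at hsp
      nlinarith
    obtain ⟨G2, hG2, hcov2, hc2⟩ := step g hg (by positivity : 0 ≤ s + 8 * q) (by linarith) hq
      (by norm_num : (1 : ℝ) ≤ 8) (le_refl (s + 8 * q + 8 * q)) (hbase _ (by positivity) h2) _ G1
      le_rfl hG1
    refine ⟨G2, ?_, ?_⟩
    · intro R hR
      obtain ⟨T, hT, hTR⟩ := hcov1 R hR
      obtain ⟨U, hU, hUT⟩ := hcov2 T hT
      exact ⟨U, hU, hUT.trans hTR⟩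
    · have h3 : 8 * cost q G1 ≤ 2 + Real.log 8 := by
        refine hc1.trans (phi_le (by norm_num) ?_)
        simpa [tower] using hGc
      have h4 : 8 * cost q G1 ≤ 5 := by
        rw [hlog8] at h3
        linarith
      have h5 : 8 * cost q G2 ≤ 2 + Real.log 5 := hc2.trans (phi_le (by norm_num) h4)
      have h6 : Real.log 5 ≤ 2 := by
        rw [Real.log_le_iff_le_exp (by norm_num)]
        have h7 : (2.7 : ℝ) < Real.exp 1 := lt_trans (by norm_num) Real.exp_one_gt_d9
        have h8 : Real.exp 2 = Real.exp 1 * Real.exp 1 := by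
          rw [← Real.exp_add]; norm_num
        rw [h8]
        nlinarith
      linarith
  | succ j ih =>
    intro s G hs hsp hG hGc
    have h1 : s + 8 * q ≤ p := by
      push_cast at hsp
      nlinarith [mul_nonneg hq.le (Nat.cast_nonneg j : (0 : ℝ) ≤ j)]
    obtain ⟨G1, hG1, hcov1, hc1⟩ := step g hg hs (by nlinarith) hq (by norm_num : (1 : ℝ) ≤ 8)
      (le_refl (s + 8 * q)) (hbase _ (by positivity) h1) _ G le_rfl hG
    have ht1 : (1 : ℝ) ≤ tower j := by exact_mod_cast one_le_tower j
    have ht2 : (0 : ℝ) < (2 : ℝ) ^ tower j := by positivity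
    have h2 : 8 * cost q G1 ≤ 8 * tower j := by
      have h3 : 8 * cost q G1 ≤ 2 + Real.log (8 * 2 ^ tower j) := by
        refine hc1.trans (phi_le ?_ ?_)
        · have : (1 : ℝ) ≤ 2 ^ tower j := one_le_pow₀ (by norm_num)
          linarith
        · simpa [tower] using hGc
      rw [Real.log_mul (by norm_num) ht2.ne', Real.log_pow, hlog8] at h3
      have h4 : (tower j : ℝ) * Real.log 2 ≤ (tower j : ℝ) * 0.6931471808 :=
        mul_le_mul_of_nonneg_left hlog2.le (by linarith)
      nlinarith
    obtain ⟨G2, hcov2, hc2⟩ := ih (s + 8 * q) G1 (by positivity) (by push_cast at hsp; nlinarith)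
      hG1 h2
    refine ⟨G2, ?_, hc2⟩
    intro R hR
    obtain ⟨T, hT, hTR⟩ := hcov1 R hR
    obtain ⟨U, hU, hUT⟩ := hcov2 T hT
    exact ⟨U, hU, hUT.trans hTR⟩

lemma cost_le_two_pow {q : ℝ} (hq : 0 ≤ q) (hq1 : q ≤ 1) (G : Finset (Finset α)) :
    cost q G ≤ 2 ^ Fintype.card α := by
  unfold cost
  calc ∑ S ∈ G, q ^ S.card ≤ ∑ S ∈ G, (1 : ℝ) :=
        Finset.sum_le_sum fun S _ => pow_le_one₀ hq hq1
    _ = G.card := by simp
    _ ≤ (Fintype.card (Finset α) : ℝ) := by exact_mod_cast Finset.card_le_univ G
    _ = 2 ^ Fintype.card α := by rw [Fintype.card_finset]; push_cast; rfl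

end Proof

end Vale.Agent.P034

namespace Vale.Agent.Results.P034.LogStar

open Vale.Agent.P034

/-- `q_f ≤ 8 (log* |X| + 3) q`. -/
theorem result {α : Type*} [Fintype α] [Nonempty α] (F : Set (Finset α))
    (_hne : F.Nonempty) (_hproper : ∅ ∉ F) (_hup : IsUpperSet F) :
    qFrac F ≤ 8 * ((logStar (Fintype.card α) : ℝ) + 3) * qInt F := by
  classical
  have hbdd : BddAbove {p : ℝ | 0 ≤ p ∧ p ≤ 1 ∧ IsSmall F p} := ⟨1, fun p hp => hp.2.1⟩
  have hq0 : 0 ≤ qInt F := Real.sSup_nonneg fun p hp => hp.1
  set k := logStar (Fintype.card α) with hk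
  have hk0 : (0 : ℝ) ≤ k := Nat.cast_nonneg k
  unfold qFrac
  apply Real.sSup_le
  · rintro p ⟨hp0, hp1, g, hg, hcov, hcost⟩
    rcases hp0.eq_or_lt with h0 | hp
    · rw [← h0]
      positivity
    · set q : ℝ := p / (8 * (k + 3)) with hqdef
      have hden : (0 : ℝ) < 8 * (k + 3) := by positivity
      have hq : 0 < q := div_pos hp hden
      have hqp : 8 * (k + 3) * q = p := by
        rw [hqdef]
        field_simp
      have hq1 : q ≤ 1 := by
        rw [hqdef, div_le_one hden]
        linarith
      -- the initial cover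
      set G0 : Finset (Finset α) := Finset.univ.filter (fun R => R ∈ F) with hG0
      have hpot0 : ∀ R ∈ G0, 1 ≤ pot g 0 R := by
        intro R hR
        have hRF : R ∈ F := (Finset.mem_filter.1 hR).2
        refine (hcov R hRF).trans ?_
        unfold pot
        have h1 : ∑ S ∈ R.powerset, g S = ∑ S ∈ R.powerset, g S * (0 : ℝ) ^ (S \ R).card := by
          apply Finset.sum_congr rfl
          intro S hS
          rw [Finset.sdiff_eq_empty_iff_subset.2 (Finset.mem_powerset.1 hS), Finset.card_empty,
            pow_zero, mul_one]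
        rw [h1]
        apply Finset.sum_le_sum_of_subset_of_nonneg (Finset.subset_univ _)
        intro S _ _
        exact mul_nonneg (hg S).1 (pow_nonneg le_rfl _)
      have hc0 : 8 * cost q G0 ≤ 8 * tower (k + 1) := by
        have h1 := cost_le_two_pow hq.le hq1 G0
        have h2 : (2 : ℝ) ^ Fintype.card α ≤ 2 ^ tower k :=
          pow_le_pow_right₀ (by norm_num) (le_tower_logStar _)
        have h3 : ((tower (k + 1) : ℕ) : ℝ) = 2 ^ tower k := by
          simp [tower]
        rw [h3]
        linarith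
      obtain ⟨G', hG'cov, hG'cost⟩ := iterate g (fun S => (hg S).1) hp1 hq hcost (k + 1) 0 G0
        le_rfl (by push_cast; linarith) hpot0 hc0
      have hsmall : IsSmall F q := by
        refine ⟨G', ?_, hG'cost⟩
        intro H hH
        exact hG'cov H (Finset.mem_filter.2 ⟨Finset.mem_univ _, hH⟩)
      have hle : q ≤ qInt F := le_csSup hbdd ⟨hq.le, hq1, hsmall⟩
      calc p = 8 * (k + 3) * q := hqp.symm
        _ ≤ 8 * (k + 3) * qInt F := mul_le_mul_of_nonneg_left hle hden.le
  · positivity

end Vale.Agent.Results.P034.LogStar
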