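import Vale.Agent.P034F.Attained

/-! Talagrand's conjecture in Mathlib terms, with no auxiliary definition: the integral and the
fractional expectation thresholds are attained maxima `0 < q ≤ q_f`, and `q_f ≤ 2 ^ 65 * q`. -/

theorem Vale.Agent.Results.P034.ThresholdRatio.result {X : Type*} [Fintype X] [Nonempty X]
    (F : Set (Finset X)) (_hnonempty : F.Nonempty) (hproper : ∅ ∉ F) (_hincreasing : IsUpperSet F) :
    ∃ q qf : ℝ,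
      IsGreatest {p : ℝ | 0 ≤ p ∧ p ≤ 1 ∧ ∃ G : Finset (Finset X),
        (∀ H ∈ F, ∃ S ∈ G, S ⊆ H) ∧ ∑ S ∈ G, p ^ S.card ≤ 1 / 2} q ∧
      IsGreatest {p : ℝ | 0 ≤ p ∧ p ≤ 1 ∧ ∃ g : Finset X → ℝ, (∀ S, 0 ≤ g S ∧ g S ≤ 1) ∧
        (∀ H ∈ F, 1 ≤ ∑ S ∈ H.powerset, g S) ∧ ∑ S : Finset X, g S * p ^ S.card ≤ 1 / 2} qf ∧
      0 < q ∧ q ≤ qf ∧ qf ≤ 2 ^ 65 * q :=
  P034F.compare hproper
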