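import Vale.Agent.P034F.Thr

/-! Talagrand's conjecture on integral and fractional expectation thresholds, stated without any
auxiliary definition. -/

namespace Vale.Agent.Results.P034.Thresholds

/-- For every finite nonempty `X` and every nonempty proper increasing family `F` on `X`, the
maxima `q` and `qf` defining the integral and the fractional expectation threshold of `F` exist,
and `0 < q ≤ qf ≤ 2 ^ 65 * q`. -/
theorem result {X : Type*} [Fintype X] [Nonempty X] (F : Set (Finset X))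
    (hne : F.Nonempty) (hproper : ∅ ∉ F) (hup : IsUpperSet F) :
    ∃ q qf : ℝ,
      IsGreatest {p : ℝ | p ∈ Set.Icc 0 1 ∧ ∃ G : Finset (Finset X),
        (∀ H ∈ F, ∃ S ∈ G, S ⊆ H) ∧ ∑ S ∈ G, p ^ S.card ≤ 1 / 2} q ∧
      IsGreatest {p : ℝ | p ∈ Set.Icc 0 1 ∧ ∃ g : Finset X → ℝ, (∀ S, g S ∈ Set.Icc 0 1) ∧
        (∀ H ∈ F, 1 ≤ ∑ S ∈ H.powerset, g S) ∧ ∑ S, g S * p ^ S.card ≤ 1 / 2} qf ∧
      0 < q ∧ q ≤ qf ∧ qf ≤ 2 ^ 65 * q :=
  P034F.thresholds F hne hproper hup

end Vale.Agent.Results.P034.Thresholds
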